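import Vale.Agent.P183.PG.Basic

/-!
# Normal form of the elements of the group, and sharp three-fold transitivity
-/

namespace Vale.Agent.P183.PG

theorem sP_mem : sP ∈ GG := Subgroup.subset_closure (by simp)

theorem wP_mem : wP ∈ GG := Subgroup.subset_closure (by simp)

theorem mP_one_mem : mP 1 ∈ GG := Subgroup.subset_closure (by simp)

/-! ## Identities between the number maps -/

theorem mm1_N : ∀ j < 63, ∀ x < 65, mN j (mN 1 x) = mN ((j + 1) % 63) x := by
  decide +kernel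

theorem mt1_N : ∀ b < 64, ∀ x < 65, mN 1 (tN b x) = tN (mN 1 b) (mN 1 x) ∧ mN 1 b < 64 := by
  decide +kernel

theorem xor_lt {a b : ℕ} (ha : a < 64) (hb : b < 64) : a ^^^ b < 64 :=
  Nat.xor_lt_two_pow (n := 6) ha hb

theorem tN_top (b : ℕ) : tN b 64 = 64 := rfl

theorem tN_lt (b : ℕ) {x : ℕ} (hx : x < 64) : tN b x = x ^^^ b := by
  have h : Nat.beq x 64 = false := by
    cases h : Nat.beq x 64 with
    | false => rfl
    | true =>
      have := Nat.eq_of_beq_eq_true h
      omega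
  simp only [tN, h, cond_false]

theorem tt_N {a b x : ℕ} (hb : b < 64) (hx : x < 65) : tN a (tN b x) = tN (a ^^^ b) x := by
  rcases Nat.lt_succ_iff_lt_or_eq.mp hx with h | h
  · rw [tN_lt b h, tN_lt a (xor_lt h hb), tN_lt _ h, Nat.xor_assoc, Nat.xor_comm b a]
  · subst h
    rfl

theorem mw_N : ∀ k < 63, ∀ x < 65, mN k (wN x) = wN (mN ((63 - k) % 63) x) := by
  decide +kernel

theorem wtw_N : ∀ b < 64, 0 < b → ∀ x < 65,
    wN (tN b (wN x)) = tN (iv b) (wN (tN b (mN ((2 * lg b) % 63) x))) ∧ iv b < 64 := by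
  decide +kernel

theorem msm_N : ∀ b < 64, 0 < b → ∀ x < 65,
    tN b x = mN (lg b % 63) (tN 1 (mN ((63 - lg b) % 63) x)) := by
  decide +kernel

theorem t0_N : ∀ x < 65, tN 0 x = x := by decide +kernel

theorem m0_N : ∀ x < 65, mN 0 x = x := by decide +kernel

theorem k0_N : ∀ k < 63, tN 0 (mN k 1) = 1 → k = 0 := by decide +kernel

/-! ## Identities between the permutations -/

theorem mP_mod (k : ℕ) : mP (k % 63) = mP k := by
  apply Equiv.ext; intro x; apply Fin.ext
  rw [mP_val, mP_val, Nat.mod_mod]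

theorem tP_mod (b : ℕ) : tP (b % 64) = tP b := by
  apply Equiv.ext; intro x; apply Fin.ext
  rw [tP_val, tP_val, Nat.mod_mod]

theorem tP_zero : tP 0 = 1 := by
  apply Equiv.ext; intro x; apply Fin.ext
  rw [tP_val, Equiv.Perm.one_apply]
  exact t0_N _ x.2

theorem mP_zero : mP 0 = 1 := by
  apply Equiv.ext; intro x; apply Fin.ext
  rw [mP_val, Equiv.Perm.one_apply]
  exact m0_N _ x.2

theorem mP_mul_one (j : ℕ) : mP j * mP 1 = mP (j + 1) := by
  apply Equiv.ext; intro x; apply Fin.ext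
  rw [Equiv.Perm.mul_apply, mP_val, mP_val, mP_val, ← Nat.mod_add_mod]
  exact mm1_N _ (Nat.mod_lt _ (by norm_num)) _ x.2

theorem mP_mul (j k : ℕ) : mP j * mP k = mP (j + k) := by
  induction k with
  | zero => rw [mP_zero, mul_one, Nat.add_zero]
  | succ k ih => rw [← mP_mul_one k, ← mul_assoc, ih, mP_mul_one, Nat.add_assoc]

theorem tP_mul {a b : ℕ} (ha : a < 64) (hb : b < 64) : tP a * tP b = tP (a ^^^ b) := by
  apply Equiv.ext; intro x; apply Fin.ext
  rw [Equiv.Perm.mul_apply, tP_val, tP_val, tP_val, Nat.mod_eq_of_lt ha, Nat.mod_eq_of_lt hb,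
    Nat.mod_eq_of_lt (xor_lt ha hb)]
  exact tt_N hb x.2

theorem mP_one_tP {b : ℕ} (hb : b < 64) : mP 1 * tP b = tP (mN 1 b) * mP 1 := by
  apply Equiv.ext; intro x; apply Fin.ext
  have h := mt1_N b hb x.1 x.2
  rw [Equiv.Perm.mul_apply, Equiv.Perm.mul_apply, mP_val, tP_val, tP_val, mP_val,
    Nat.mod_eq_of_lt hb, Nat.mod_eq_of_lt h.2]
  exact h.1

theorem mP_tP_ex (j : ℕ) : ∀ b < 64, ∃ c < 64, mP j * tP b = tP c * mP j := by
  induction j with
  | zero =>
    intro b hb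
    exact ⟨b, hb, by rw [mP_zero, one_mul, mul_one]⟩
  | succ j ih =>
    intro b hb
    obtain ⟨c, hc, h⟩ := ih (mN 1 b) (mt1_N b hb 0 (by norm_num)).2
    refine ⟨c, hc, ?_⟩
    rw [← mP_mul_one, mul_assoc, mP_one_tP hb, ← mul_assoc, h, mul_assoc]

theorem mP_tP_aux {j b : ℕ} (hj : j < 63) (hb : b < 64) :
    mN j b < 64 ∧ mP j * tP b = tP (mN j b) * mP j := by
  obtain ⟨c, hc, h⟩ := mP_tP_ex j b hb
  have h1 := congrArg (fun p : Equiv.Perm (Fin 65) => (p 0).val) h
  simp only [Equiv.Perm.mul_apply] at h1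
  rw [mP_val, tP_val, tP_val, mP_val, Nat.mod_eq_of_lt hj, Nat.mod_eq_of_lt hb,
    Nat.mod_eq_of_lt hc] at h1
  have h2 : tN b (0 : Fin 65).val = 0 ^^^ b := rfl
  have h3 : tN c (mN j (0 : Fin 65).val) = 0 ^^^ c := rfl
  rw [h2, h3, Nat.zero_xor, Nat.zero_xor] at h1
  rw [h1]
  exact ⟨hc, h⟩

theorem mN_lt {j b : ℕ} (hj : j < 63) (hb : b < 64) : mN j b < 64 := (mP_tP_aux hj hb).1

theorem mP_tP {j b : ℕ} (hj : j < 63) (hb : b < 64) : mP j * tP b = tP (mN j b) * mP j :=
  (mP_tP_aux hj hb).2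

theorem mP_wP {k : ℕ} (hk : k < 63) : mP k * wP = wP * mP (63 - k) := by
  apply Equiv.ext; intro x; apply Fin.ext
  rw [Equiv.Perm.mul_apply, Equiv.Perm.mul_apply, mP_val, wP_val, wP_val, mP_val,
    Nat.mod_eq_of_lt hk]
  exact mw_N k hk x.1 x.2

theorem wP_wP : wP * wP = 1 := by
  apply Equiv.ext; intro x; apply Fin.ext
  rw [Equiv.Perm.mul_apply, wP_val, wP_val, Equiv.Perm.one_apply]
  exact (wN_ok x.1 x.2).2.2.1

theorem wtw {b : ℕ} (hb : b < 64) (h0 : 0 < b) :
    wP * tP b * wP = tP (iv b) * wP * tP b * mP (2 * lg b) := by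
  apply Equiv.ext; intro x; apply Fin.ext
  have h := wtw_N b hb h0 x.1 x.2
  simp only [Equiv.Perm.mul_apply]
  rw [wP_val, tP_val, wP_val, tP_val, wP_val, tP_val, mP_val, Nat.mod_eq_of_lt hb,
    Nat.mod_eq_of_lt h.2]
  exact h.1

theorem tP_eq {b : ℕ} (hb : b < 64) (h0 : 0 < b) : tP b = mP (lg b) * sP * mP (63 - lg b) := by
  apply Equiv.ext; intro x; apply Fin.ext
  simp only [Equiv.Perm.mul_apply]
  rw [tP_val, mP_val, sP_val, mP_val, Nat.mod_eq_of_lt hb]
  exact msm_N b hb h0 x.1 x.2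

theorem mP_mem (k : ℕ) : mP k ∈ GG := by
  induction k with
  | zero => rw [mP_zero]; exact GG.one_mem
  | succ k ih => rw [← mP_mul]; exact GG.mul_mem ih mP_one_mem

theorem tP_mem (b : ℕ) : tP b ∈ GG := by
  rw [← tP_mod]
  have hb : b % 64 < 64 := Nat.mod_lt _ (by norm_num)
  rcases Nat.eq_zero_or_pos (b % 64) with h0 | h0
  · rw [h0, tP_zero]; exact GG.one_mem
  · rw [tP_eq hb h0]
    exact GG.mul_mem (GG.mul_mem (mP_mem _) sP_mem) (mP_mem _)

/-- The coset representative that maps `64` to `x`. -/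
def uP (x : ℕ) : Equiv.Perm (Fin 65) := if x = 64 then 1 else tP x * wP

/-- The set of normal forms. -/
def NF (p : Equiv.Perm (Fin 65)) : Prop :=
  ∃ x b k : ℕ, x ≤ 64 ∧ b < 64 ∧ k < 63 ∧ p = uP x * tP b * mP k

theorem NF_mk {x b : ℕ} (k : ℕ) (hx : x ≤ 64) (hb : b < 64) : NF (uP x * tP b * mP k) :=
  ⟨x, b, k % 63, hx, hb, Nat.mod_lt _ (by norm_num), by rw [mP_mod]⟩

theorem NF_mul_mP {p : Equiv.Perm (Fin 65)} (h : NF p) (j : ℕ) : NF (p * mP j) := by
  obtain ⟨x, b, k, hx, hb, _, rfl⟩ := h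
  rw [mul_assoc, mP_mul]
  exact NF_mk _ hx hb

theorem NF_mul_sP {p : Equiv.Perm (Fin 65)} (h : NF p) : NF (p * sP) := by
  obtain ⟨x, b, k, hx, hb, hk, rfl⟩ := h
  have h1 : mP k * sP = tP (mN k 1) * mP k := mP_tP hk (by norm_num)
  have h2 : mN k 1 < 64 := mN_lt hk (by norm_num)
  have h3 : uP x * tP b * mP k * sP = uP x * tP (b ^^^ mN k 1) * mP k := by
    rw [mul_assoc, h1, ← tP_mul hb h2]
    simp only [mul_assoc]
  rw [h3]
  exact NF_mk _ hx (xor_lt hb h2)

theorem NF_mul_wP {p : Equiv.Perm (Fin 65)} (h : NF p) : NF (p * wP) := by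
  obtain ⟨x, b, k, hx, hb, hk, rfl⟩ := h
  have h1 : uP x * tP b * mP k * wP = uP x * tP b * wP * mP (63 - k) := by
    rw [mul_assoc, mP_wP hk]
    simp only [mul_assoc]
  rw [h1]
  apply NF_mul_mP
  rcases Nat.eq_zero_or_pos b with h0 | h0
  · subst h0
    rw [tP_zero, mul_one]
    by_cases hx64 : x = 64
    · refine ⟨0, 0, 0, by norm_num, by norm_num, by norm_num, ?_⟩
      simp [uP, hx64, tP_zero, mP_zero]
    · refine ⟨64, x, 0, le_rfl, by omega, by norm_num, ?_⟩
      simp [uP, hx64, mP_zero, mul_assoc, wP_wP]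
  · by_cases hx64 : x = 64
    · refine ⟨b, 0, 0, by omega, by norm_num, by norm_num, ?_⟩
      have hb64 : b ≠ 64 := by omega
      simp [uP, hx64, hb64, tP_zero, mP_zero]
    · have hx' : x < 64 := by omega
      have hiv : iv b < 64 := (wtw_N b hb h0 0 (by norm_num)).2
      have hxi : x ^^^ iv b < 64 := xor_lt hx' hiv
      have h2 : uP x * tP b * wP = uP (x ^^^ iv b) * tP b * mP (2 * lg b) := by
        have hne : x ^^^ iv b ≠ 64 := by omega
        simp only [uP, hx64, hne, if_false]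
        rw [← tP_mul hx' hiv]
        have := wtw hb h0
        calc tP x * wP * tP b * wP = tP x * (wP * tP b * wP) := by simp only [mul_assoc]
          _ = tP x * (tP (iv b) * wP * tP b * mP (2 * lg b)) := by rw [this]
          _ = _ := by simp only [mul_assoc]
      rw [h2]
      exact NF_mk _ (by omega) hb

theorem sP_inv : sP⁻¹ = sP := by
  apply Equiv.ext; intro x; apply Fin.ext
  rfl

theorem wP_inv : wP⁻¹ = wP := by
  apply Equiv.ext; intro x; apply Fin.ext
  rfl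

theorem mP_one_inv : (mP 1)⁻¹ = mP 62 := by
  apply Equiv.ext; intro x; apply Fin.ext
  rfl

theorem normal_form {p : Equiv.Perm (Fin 65)} (hp : p ∈ GG) :
    ∃ x b k : ℕ, x ≤ 64 ∧ b < 64 ∧ k < 63 ∧ p = uP x * tP b * mP k := by
  change NF p
  induction hp using Subgroup.closure_induction_right with
  | one =>
    refine ⟨64, 0, 0, le_rfl, by norm_num, by norm_num, ?_⟩
    simp [uP, tP_zero, mP_zero]
  | mul_right x y _ hy ih =>
    rcases hy with rfl | rfl | hy
    · exact NF_mul_sP ih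
    · exact NF_mul_wP ih
    · rw [Set.mem_singleton_iff] at hy
      subst hy
      exact NF_mul_mP ih 1
  | mul_inv_cancel x y _ hy ih =>
    rcases hy with rfl | rfl | hy
    · rw [sP_inv]; exact NF_mul_sP ih
    · rw [wP_inv]; exact NF_mul_wP ih
    · rw [Set.mem_singleton_iff] at hy
      subst hy
      rw [mP_one_inv]
      exact NF_mul_mP ih 62

/-- An element of the group that fixes `0`, `1` and `64` is the identity. -/
theorem rigid {p : Equiv.Perm (Fin 65)} (hp : p ∈ GG) (h0 : p 0 = 0) (h1 : p 1 = 1)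
    (h2 : p 64 = 64) : p = 1 := by
  obtain ⟨x, b, k, hx, hb, hk, rfl⟩ := normal_form hp
  have hx64 : x = 64 := by
    by_contra hne
    have hx' : x < 64 := by omega
    have h3 := congrArg Fin.val h2
    simp only [uP, hne, if_false, Equiv.Perm.mul_apply] at h3
    rw [tP_val, wP_val, tP_val, mP_val, Nat.mod_eq_of_lt hx'] at h3
    have h4 : tN x (wN (tN (b % 64) (mN (k % 63) (64 : Fin 65).val))) = 0 ^^^ x := rfl
    rw [h4, Nat.zero_xor] at h3
    have h5 : ((64 : Fin 65) : ℕ) = 64 := rfl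
    omega
  subst hx64
  have hb0 : b = 0 := by
    have h3 := congrArg Fin.val h0
    simp only [uP, if_true, one_mul, Equiv.Perm.mul_apply] at h3
    rw [tP_val, mP_val, Nat.mod_eq_of_lt hb] at h3
    have h4 : tN b (mN (k % 63) (0 : Fin 65).val) = 0 ^^^ b := rfl
    rw [h4, Nat.zero_xor] at h3
    exact h3
  subst hb0
  have hk0 : k = 0 := by
    have h3 := congrArg Fin.val h1
    simp only [uP, if_true, one_mul, Equiv.Perm.mul_apply] at h3
    rw [tP_val, mP_val, Nat.mod_eq_of_lt hk] at h3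
    exact k0_N k hk h3
  subst hk0
  simp [uP, tP_zero, mP_zero]

end Vale.Agent.P183.PG
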