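import Vale.Agent.P183.PG.Sort

/-!
# Soundness of the path check
-/

namespace Vale.Agent.P183.PG

theorem lg_lt_aux : ∀ x < 64, x ≠ 0 → lg x < 63 := by decide +kernel

theorem iv_lt_aux : ∀ x < 64, x ≠ 0 → iv x < 64 := by decide +kernel

theorem iv_inj_aux : ∀ x < 64, ∀ y < 64, x ≠ 0 → y ≠ 0 → iv x = iv y → x = y := by
  decide +kernel

theorem xor_lt_aux {a b : ℕ} (ha : a < 64) (hb : b < 64) : a ^^^ b < 64 :=
  Nat.xor_lt_two_pow (n := 6) ha hb

theorem xor_ne_aux {a b : ℕ} (h : a ≠ b) : a ^^^ b ≠ 0 := by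
  intro h0
  exact h (Nat.xor_eq_zero_iff.1 h0)

theorem pH_lt_aux {a c : ℕ} (ha : a < 64) (hc : c < 64) (hac : a ≠ c) : pH a c < 64 :=
  iv_lt_aux _ (xor_lt_aux ha hc) (xor_ne_aux hac)

theorem pK_lt_aux {a b c : ℕ} (h : Tri a b c) : pK a b c < 63 := by
  obtain ⟨hab, hbc, hc⟩ := h
  by_cases h64 : c = 64
  · subst h64
    have : pK a b 64 = lg (a ^^^ b) := rfl
    rw [this]
    exact lg_lt_aux _ (xor_lt_aux (by omega) hbc) (xor_ne_aux (by omega))
  · have hc' : c < 64 := by omega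
    have hbeq : Nat.beq c 64 = false := by
      rw [← Bool.not_eq_true, Nat.beq_eq]
      exact h64
    have : pK a b c = lg (iv (a ^^^ c) ^^^ iv (b ^^^ c)) := by
      unfold pK
      rw [hbeq]
      rfl
    rw [this]
    have h1 : a ^^^ c < 64 := xor_lt_aux (by omega) hc'
    have h2 : b ^^^ c < 64 := xor_lt_aux (by omega) hc'
    have h3 : a ^^^ c ≠ 0 := xor_ne_aux (by omega)
    have h4 : b ^^^ c ≠ 0 := xor_ne_aux (by omega)
    refine lg_lt_aux _ (xor_lt_aux (iv_lt_aux _ h1 h3) (iv_lt_aux _ h2 h4)) (xor_ne_aux ?_)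
    intro hiv
    have h5 := iv_inj_aux _ h1 _ h2 h3 h4 hiv
    have h6 : a = b := Nat.xor_left_inj.1 h5
    omega

/-- The parameters used by `chk`. -/
def flP (c : ℕ) : ℕ := cond (Nat.beq c 64) 1 0

def p1P (a c : ℕ) : ℕ := cond (Nat.beq c 64) a c

def p2P (a c : ℕ) : ℕ := cond (Nat.beq c 64) 0 (pH a c)

theorem chk_eq (fin : ℕ → ℕ → ℕ → Bool) (a b c p : ℕ) :
    chk fin a b c p = run fin (flP c) (p1P a c) (p2P a c) (pK a b c) ((63 - pK a b c) % 63)
      30 p 0 1 64 := by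
  unfold chk flP p1P p2P
  cases Nat.beq c 64 <;> rfl

theorem gP_val_aux {a b c : ℕ} (h : Tri a b c) (x : Fin 65) :
    (gP a b c x).val = gN (flP c) (p1P a c) (p2P a c) (pK a b c) x.val := by
  have hK : pK a b c % 63 = pK a b c := Nat.mod_eq_of_lt (pK_lt_aux h)
  obtain ⟨hab, hbc, hc⟩ := h
  by_cases h64 : c = 64
  · subst h64
    have ha : a % 64 = a := Nat.mod_eq_of_lt (by omega)
    have h1 : gP a b 64 = tP a * mP (pK a b 64) := if_pos rfl
    rw [h1, Equiv.Perm.mul_apply, tP_val, mP_val, ha, hK]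
    rfl
  · have hc' : c < 64 := by omega
    have hbeq : Nat.beq c 64 = false := by
      rw [← Bool.not_eq_true, Nat.beq_eq]
      exact h64
    have hcm : c % 64 = c := Nat.mod_eq_of_lt hc'
    have hH : pH a c % 64 = pH a c := Nat.mod_eq_of_lt (pH_lt_aux (by omega) hc' (by omega))
    have h1 : gP a b c = tP c * wP * tP (pH a c) * mP (pK a b c) := if_neg h64
    rw [h1, Equiv.Perm.mul_apply, Equiv.Perm.mul_apply, Equiv.Perm.mul_apply, tP_val, wP_val,
      tP_val, mP_val, hcm, hH, hK]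
    unfold flP p1P p2P
    rw [hbeq]
    rfl

theorem gP_inv_val_aux {a b c : ℕ} (h : Tri a b c) (x : Fin 65) :
    ((gP a b c)⁻¹ x).val
      = gI (flP c) (p1P a c) (p2P a c) ((63 - pK a b c) % 63) x.val := by
  have hK : pK a b c % 63 = pK a b c := Nat.mod_eq_of_lt (pK_lt_aux h)
  obtain ⟨hab, hbc, hc⟩ := h
  by_cases h64 : c = 64
  · subst h64
    have ha : a % 64 = a := Nat.mod_eq_of_lt (by omega)
    have h1 : gP a b 64 = tP a * mP (pK a b 64) := if_pos rfl
    rw [h1, mul_inv_rev, Equiv.Perm.mul_apply, mP_inv_val, tP_inv_val, ha, hK]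
    rfl
  · have hc' : c < 64 := by omega
    have hbeq : Nat.beq c 64 = false := by
      rw [← Bool.not_eq_true, Nat.beq_eq]
      exact h64
    have hcm : c % 64 = c := Nat.mod_eq_of_lt hc'
    have hH : pH a c % 64 = pH a c := Nat.mod_eq_of_lt (pH_lt_aux (by omega) hc' (by omega))
    have h1 : gP a b c = tP c * wP * tP (pH a c) * mP (pK a b c) := if_neg h64
    rw [h1, mul_inv_rev, mul_inv_rev, mul_inv_rev, Equiv.Perm.mul_apply, Equiv.Perm.mul_apply,
      Equiv.Perm.mul_apply, mP_inv_val, tP_inv_val, wP_inv_val, tP_inv_val, hcm, hH, hK]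
    unfold flP p1P p2P
    rw [hbeq]
    rfl

theorem sP_mem_Y3 (a b c : ℕ) : sP ∈ Y3 a b c := Subgroup.subset_closure (by simp)

theorem wP_mem_Y3 (a b c : ℕ) : wP ∈ Y3 a b c := Subgroup.subset_closure (by simp)

/-- Every letter is an element of `Y3 a b c`. -/
theorem step_letter {a b c : ℕ} (h : Tri a b c) (d : ℕ) :
    ∃ g ∈ Y3 a b c, ∀ x : Fin 65, (g x).val
      = step (flP c) (p1P a c) (p2P a c) (pK a b c) ((63 - pK a b c) % 63) d x.val := by
  unfold step
  cases Nat.beq d 0 with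
  | true => exact ⟨sP, sP_mem_Y3 a b c, fun x => sP_val x⟩
  | false =>
    cases Nat.beq d 1 with
    | true => exact ⟨wP, wP_mem_Y3 a b c, fun x => wP_val x⟩
    | false =>
      cases Nat.beq d 2 with
      | true => exact ⟨gP a b c, gP_mem_Y3 a b c, fun x => gP_val_aux h x⟩
      | false =>
        exact ⟨(gP a b c)⁻¹, (Y3 a b c).inv_mem (gP_mem_Y3 a b c), fun x => gP_inv_val_aux h x⟩

theorem run_sound (fin : ℕ → ℕ → ℕ → Bool) {a b c : ℕ} (h : Tri a b c) (f : ℕ) :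
    ∀ (p : ℕ) (r0 : Equiv.Perm (Fin 65)), r0 ∈ Y3 a b c →
      run fin (flP c) (p1P a c) (p2P a c) (pK a b c) ((63 - pK a b c) % 63) f p
        (r0 0).val (r0 1).val (r0 64).val = true →
      ∃ r ∈ Y3 a b c, fin (r 0).val (r 1).val (r 64).val = true := by
  induction f with
  | zero =>
    intro p r0 hr0 hrun
    exact ⟨r0, hr0, hrun⟩
  | succ f ih =>
    intro p r0 hr0 hrun
    unfold run at hrun
    cases hp : Nat.ble p 1 with
    | true =>
      rw [hp] at hrun
      exact ⟨r0, hr0, hrun⟩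
    | false =>
      rw [hp] at hrun
      obtain ⟨g, hg, hgv⟩ := step_letter h (p % 4)
      refine ih (p / 4) (g * r0) ((Y3 a b c).mul_mem hg hr0) ?_
      rw [Equiv.Perm.mul_apply, Equiv.Perm.mul_apply, Equiv.Perm.mul_apply, hgv, hgv, hgv]
      exact hrun

/-- If the check succeeds, some element of `Y3 a b c` maps `0, 1, 64` to three points that pass
the test. -/
theorem chk_sound (fin : ℕ → ℕ → ℕ → Bool) {a b c : ℕ} (h : Tri a b c) (p : ℕ)
    (hc : chk fin a b c p = true) :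
    ∃ r ∈ Y3 a b c, fin (r 0).val (r 1).val (r 64).val = true := by
  rw [chk_eq] at hc
  exact run_sound fin h 30 p 1 (Y3 a b c).one_mem hc

theorem reach_sound {a b c a' b' c' : ℕ} (h : Tri a b c) (h' : Tri a' b' c') (p : ℕ)
    (hc : chk (same3 a' b' c') a b c p = true) : gP a' b' c' ∈ Y3 a b c := by
  obtain ⟨r, hr, hs⟩ := chk_sound _ h p hc
  exact mem_of_same3 (HH_le_Y3 a b c) (Y3_le_GG a b c) hr h' hs

theorem reach_le {a b c a' b' c' : ℕ} (h : Tri a b c) (h' : Tri a' b' c') (p : ℕ)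
    (hc : chk (same3 a' b' c') a b c p = true) : Y3 a' b' c' ≤ Y3 a b c :=
  Y3_le_of_mem (HH_le_Y3 a b c) (reach_sound h h' p hc)

end Vale.Agent.P183.PG
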