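import Vale.Agent.P183.PG.Normal

/-!
# The element of the group with prescribed images of `0`, `1`, `64`
-/

namespace Vale.Agent.P183.PG

theorem HH_le_GG : HH ≤ GG := by
  apply Subgroup.closure_mono
  intro x hx
  rcases hx with hx | hx
  · exact Or.inl hx
  · exact Or.inr (Or.inl hx)

theorem gP_mem (a b c : ℕ) : gP a b c ∈ GG := by
  unfold gP
  split
  · exact GG.mul_mem (tP_mem _) (mP_mem _)
  · exact GG.mul_mem (GG.mul_mem (GG.mul_mem (tP_mem _) wP_mem) (tP_mem _)) (mP_mem _)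

/-- The map `gP a b c` on numbers. -/
def gV (a b c x : ℕ) : ℕ :=
  cond (Nat.beq c 64) (tN (a % 64) (mN (pK a b c % 63) x))
    (tN (c % 64) (wN (tN (pH a c % 64) (mN (pK a b c % 63) x))))

theorem gP_val (a b c : ℕ) (x : Fin 65) : (gP a b c x).val = gV a b c x.val := by
  unfold gP gV
  by_cases hc : c = 64
  · subst hc
    rfl
  · rw [if_neg hc]
    have h1 : Nat.beq c 64 = false := by
      cases h : Nat.beq c 64
      · rfl
      · exact absurd (Nat.eq_of_beq_eq_true h) hc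
    rw [h1]
    rfl

theorem gV_spec : ∀ c < 65, ∀ b < c, ∀ a < b,
    gV a b c 0 = a ∧ gV a b c 1 = b ∧ gV a b c 64 = c := by decide +kernel

theorem gP_spec {a b c : ℕ} (h : Tri a b c) :
    (gP a b c 0).val = a ∧ (gP a b c 1).val = b ∧ (gP a b c 64).val = c := by
  obtain ⟨h1, h2, h3⟩ := h
  have := gV_spec c (by omega) b h2 a h1
  rw [gP_val, gP_val, gP_val]
  exact this

theorem HH_le_Y3 (a b c : ℕ) : HH ≤ Y3 a b c := by
  apply Subgroup.closure_mono
  intro x hx
  rcases hx with hx | hx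
  · exact Or.inl hx
  · exact Or.inr (Or.inl hx)

theorem Y3_le_GG (a b c : ℕ) : Y3 a b c ≤ GG := by
  unfold Y3
  rw [Subgroup.closure_le]
  intro x hx
  rcases hx with hx | hx | hx
  · rw [hx]; exact sP_mem
  · rw [hx]; exact wP_mem
  · rw [Set.mem_singleton_iff.mp hx]; exact gP_mem a b c

theorem gP_mem_Y3 (a b c : ℕ) : gP a b c ∈ Y3 a b c := Subgroup.subset_closure (by simp)

theorem sP_mem_HH : sP ∈ HH := Subgroup.subset_closure (by simp)

theorem wP_mem_HH : wP ∈ HH := Subgroup.subset_closure (by simp)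

/-- An element of the group is determined by the images of `0`, `1`, `64`. -/
theorem eq_gP {q : Equiv.Perm (Fin 65)} (hq : q ∈ GG) {a b c : ℕ} (h : Tri a b c)
    (h0 : (q 0).val = a) (h1 : (q 1).val = b) (h2 : (q 64).val = c) : q = gP a b c := by
  obtain ⟨g0, g1, g2⟩ := gP_spec h
  have e0 : q 0 = gP a b c 0 := Fin.ext (by rw [h0, g0])
  have e1 : q 1 = gP a b c 1 := Fin.ext (by rw [h1, g1])
  have e2 : q 64 = gP a b c 64 := Fin.ext (by rw [h2, g2])
  have hm : (gP a b c)⁻¹ * q ∈ GG := GG.mul_mem (GG.inv_mem (gP_mem a b c)) hq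
  have hr := rigid hm
    (by rw [Equiv.Perm.mul_apply, e0]; exact Equiv.Perm.inv_eq_iff_eq.mpr rfl)
    (by rw [Equiv.Perm.mul_apply, e1]; exact Equiv.Perm.inv_eq_iff_eq.mpr rfl)
    (by rw [Equiv.Perm.mul_apply, e2]; exact Equiv.Perm.inv_eq_iff_eq.mpr rfl)
  exact (inv_mul_eq_one.mp hr).symm

theorem sP_0 : sP 0 = 1 := by decide +kernel
theorem sP_1 : sP 1 = 0 := by decide +kernel
theorem sP_64 : sP 64 = 64 := by decide +kernel
theorem wP_0 : wP 0 = 64 := by decide +kernel
theorem wP_1 : wP 1 = 1 := by decide +kernel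
theorem wP_64 : wP 64 = 0 := by decide +kernel

/-- The six maps realise all arrangements of the images of `0`, `1`, `64`. -/
theorem exists_arr (r : Equiv.Perm (Fin 65)) {a b c : ℕ}
    (hs : same3 a b c (r 0).val (r 1).val (r 64).val = true) (h : Tri a b c) :
    ∃ s ∈ HH, ((r * s) 0).val = a ∧ ((r * s) 1).val = b ∧ ((r * s) 64).val = c := by
  obtain ⟨hab, hbc, -⟩ := h
  simp only [same3, Bool.and_eq_true, Bool.or_eq_true, Nat.beq_eq] at hs
  obtain ⟨⟨ha, hb⟩, hc⟩ := hs
  rcases ha with (ha | ha) | ha <;> rcases hb with (hb | hb) | hb <;>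
    rcases hc with (hc | hc) | hc <;> try (exfalso; omega)
  · refine ⟨1, HH.one_mem, ?_, ?_, ?_⟩ <;>
      simp only [mul_one] <;> assumption
  · refine ⟨sP * wP * sP, HH.mul_mem (HH.mul_mem sP_mem_HH wP_mem_HH) sP_mem_HH, ?_, ?_, ?_⟩ <;>
      simp only [Equiv.Perm.mul_apply, sP_0, sP_1, sP_64, wP_0, wP_1, wP_64] <;> assumption
  · refine ⟨sP, sP_mem_HH, ?_, ?_, ?_⟩ <;>
      simp only [Equiv.Perm.mul_apply, sP_0, sP_1, sP_64] <;> assumption
  · refine ⟨wP * sP, HH.mul_mem wP_mem_HH sP_mem_HH, ?_, ?_, ?_⟩ <;>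
      simp only [Equiv.Perm.mul_apply, sP_0, sP_1, sP_64, wP_0, wP_1, wP_64] <;> assumption
  · refine ⟨sP * wP, HH.mul_mem sP_mem_HH wP_mem_HH, ?_, ?_, ?_⟩ <;>
      simp only [Equiv.Perm.mul_apply, sP_0, sP_1, sP_64, wP_0, wP_1, wP_64] <;> assumption
  · refine ⟨wP, wP_mem_HH, ?_, ?_, ?_⟩ <;>
      simp only [Equiv.Perm.mul_apply, wP_0, wP_1, wP_64] <;> assumption

/-- If an element `r` of a subgroup `X` between `HH` and `GG` maps `0, 1, 64` onto `a, b, c` in
some order, then `gP a b c` lies in `X`. -/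
theorem mem_of_same3 {X : Subgroup (Equiv.Perm (Fin 65))} (hH : HH ≤ X) (hG : X ≤ GG)
    {r : Equiv.Perm (Fin 65)} (hr : r ∈ X) {a b c : ℕ} (h : Tri a b c)
    (hs : same3 a b c (r 0).val (r 1).val (r 64).val = true) : gP a b c ∈ X := by
  obtain ⟨s, hsH, h0, h1, h2⟩ := exists_arr r hs h
  have hm : r * s ∈ X := X.mul_mem hr (hH hsH)
  rw [← eq_gP (hG hm) h h0 h1 h2]
  exact hm

/-- Every element of the group is `gP a b c` up to one of the six maps. -/
theorem exists_sorted {p : Equiv.Perm (Fin 65)} (hp : p ∈ GG) :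
    ∃ a b c : ℕ, Tri a b c ∧ ∃ s ∈ HH, p * s = gP a b c := by
  have hx : (p 0).val ≤ 64 := by have := (p 0).isLt; omega
  have hy : (p 1).val ≤ 64 := by have := (p 1).isLt; omega
  have hz : (p 64).val ≤ 64 := by have := (p 64).isLt; omega
  have hxy : (p 0).val ≠ (p 1).val := by
    intro he
    have := p.injective (Fin.ext he)
    exact absurd this (by decide)
  have hxz : (p 0).val ≠ (p 64).val := by
    intro he
    have := p.injective (Fin.ext he)
    exact absurd this (by decide)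
  have hyz : (p 1).val ≠ (p 64).val := by
    intro he
    have := p.injective (Fin.ext he)
    exact absurd this (by decide)
  have main : ∀ a b c : ℕ, Tri a b c →
      same3 a b c (p 0).val (p 1).val (p 64).val = true →
      ∃ a b c : ℕ, Tri a b c ∧ ∃ s ∈ HH, p * s = gP a b c := by
    intro a b c h hs
    obtain ⟨s, hsH, h0, h1, h2⟩ := exists_arr p hs h
    exact ⟨a, b, c, h, s, hsH, eq_gP (GG.mul_mem hp (HH_le_GG hsH)) h h0 h1 h2⟩
  generalize (p 0).val = x at *
  generalize (p 1).val = y at *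
  generalize (p 64).val = z at *
  have hsame : ∀ u v w : ℕ, (u = x ∨ u = y ∨ u = z) → (v = x ∨ v = y ∨ v = z) →
      (w = x ∨ w = y ∨ w = z) → same3 u v w x y z = true := by
    intro u v w hu hv hw
    simp only [same3, Bool.and_eq_true, Bool.or_eq_true, Nat.beq_eq]
    refine ⟨⟨?_, ?_⟩, ?_⟩
    · rcases hu with h | h | h
      · exact Or.inl (Or.inl h.symm)
      · exact Or.inl (Or.inr h.symm)
      · exact Or.inr h.symm
    · rcases hv with h | h | h
      · exact Or.inl (Or.inl h.symm)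
      · exact Or.inl (Or.inr h.symm)
      · exact Or.inr h.symm
    · rcases hw with h | h | h
      · exact Or.inl (Or.inl h.symm)
      · exact Or.inl (Or.inr h.symm)
      · exact Or.inr h.symm
  rcases lt_or_gt_of_ne hxy with h1 | h1 <;> rcases lt_or_gt_of_ne hxz with h2 | h2 <;>
    rcases lt_or_gt_of_ne hyz with h3 | h3
  · exact main x y z ⟨h1, h3, hz⟩ (hsame _ _ _ (by simp) (by simp) (by simp))
  · exact main x z y ⟨h2, h3, hy⟩ (hsame _ _ _ (by simp) (by simp) (by simp))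
  · exfalso; omega
  · exact main z x y ⟨h2, h1, hy⟩ (hsame _ _ _ (by simp) (by simp) (by simp))
  · exact main y x z ⟨h1, h2, hz⟩ (hsame _ _ _ (by simp) (by simp) (by simp))
  · exfalso; omega
  · exact main y z x ⟨h3, h2, hx⟩ (hsame _ _ _ (by simp) (by simp) (by simp))
  · exact main z y x ⟨h3, h1, hx⟩ (hsame _ _ _ (by simp) (by simp) (by simp))

theorem Y3_le_of_mem {X : Subgroup (Equiv.Perm (Fin 65))} (hH : HH ≤ X) {a b c : ℕ}
    (h : gP a b c ∈ X) : Y3 a b c ≤ X := by
  unfold Y3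
  rw [Subgroup.closure_le]
  intro x hx
  rcases hx with hx | hx | hx
  · rw [hx]; exact hH sP_mem_HH
  · rw [hx]; exact hH wP_mem_HH
  · rw [Set.mem_singleton_iff.mp hx]; exact h

theorem gV_top : ∀ x < 65, gV 0 2 64 x = mN (1 % 63) x := by decide +kernel

theorem gV_bot : ∀ x < 65, gV 0 1 64 x = x := by decide +kernel

theorem gP_top : gP 0 2 64 = mP 1 := by
  apply Equiv.ext
  intro x
  apply Fin.ext
  rw [gP_val, mP_val]
  exact gV_top x.val x.isLt

theorem gP_bot : gP 0 1 64 = 1 := by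
  apply Equiv.ext
  intro x
  apply Fin.ext
  rw [gP_val]
  exact gV_bot x.val x.isLt

theorem Y3_top : Y3 0 2 64 = GG := by
  unfold Y3 GG
  rw [gP_top]

theorem Y3_bot : Y3 0 1 64 = HH := by
  apply le_antisymm
  · apply Y3_le_of_mem (le_refl _)
    rw [gP_bot]
    exact HH.one_mem
  · exact HH_le_Y3 0 1 64

end Vale.Agent.P183.PG
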